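import Vale.Agent.Lib.P107.Barrier

/-!
# P107: the momentum support of a classical solution grows only through the power `u(v) · E`
delivered to the particles at the top energy level

`f` is any solution of the relativistic Vlasov equation with Lorentz force `E + u(v) × B` on
`[0, T)` whose `(x, v)`-support is compact on compact time intervals.  Neither Maxwell's equations,
nor the sign of `f`, nor any regularity of `E`, `B` is used.

(1) Comparison principle: a differentiable barrier `A` that starts above the initial energies and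
whose speed exceeds `u(v) · E(t, x)` at the points of `{f ≠ 0}` with `q(v) = A t` stays above all
energies.
(2) Consequently `q(v) ≤ P₀ + ∫₀ᵗ e` on `{f ≠ 0}`, if `e` is continuous on `[0, T)` and dominates the
power `u(v) · E(t, x)` (or `|E(t, x)|`) on `{f ≠ 0}`.
-/

open Matrix Set

namespace Vale.Agent.Results.P107.FrontierPower

open Vale.Agent.Lib.P107

theorem result (T : ℝ) (f : ℝ × (Fin 3 → ℝ) × (Fin 3 → ℝ) → ℝ)
    (E B : ℝ × (Fin 3 → ℝ) → Fin 3 → ℝ)
    (hcont : ContinuousOn f (Ico 0 T ×ˢ univ))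
    (hdiff : ∀ t x v, 0 < t → t < T → DifferentiableAt ℝ f (t, x, v))
    (hvlasov : ∀ t x v, 0 < t → t < T →
      fderiv ℝ f (t, x, v) (1, vel v, E (t, x) + vel v ⨯₃ B (t, x)) = 0)
    (hsupp : ∀ t₁, t₁ < T → ∃ C : Set ((Fin 3 → ℝ) × (Fin 3 → ℝ)), IsCompact C ∧
      ∀ t x v, 0 ≤ t → t ≤ t₁ → f (t, x, v) ≠ 0 → (x, v) ∈ C) :
    (∀ A : ℝ → ℝ, Differentiable ℝ A →
      (∀ x v, f (0, x, v) ≠ 0 → en v < A 0) →
      (∀ t x v, 0 < t → t < T → f (t, x, v) ≠ 0 → en v = A t →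
        vel v ⬝ᵥ E (t, x) < deriv A t) →
      ∀ t x v, 0 ≤ t → t < T → f (t, x, v) ≠ 0 → en v < A t) ∧
    (∀ (P₀ : ℝ) (e : ℝ → ℝ), ContinuousOn e (Ico 0 T) →
      (∀ x v, f (0, x, v) ≠ 0 → en v ≤ P₀) →
      (∀ t x v, 0 < t → t < T → f (t, x, v) ≠ 0 →
        vel v ⬝ᵥ E (t, x) ≤ e t ∨ Real.sqrt (E (t, x) ⬝ᵥ E (t, x)) ≤ e t) →
      ∀ t x v, 0 ≤ t → t < T → f (t, x, v) ≠ 0 → en v ≤ P₀ + ∫ s in (0 : ℝ)..t, e s) :=
  ⟨fun A hA h0 hfront => frontier T f E B hcont hdiff hvlasov hsupp A (deriv A)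
      (fun t => (hA t).hasDerivAt) h0 hfront,
    fun P₀ e he hP₀ hpow => support_bound_on T f E B hcont hdiff hvlasov hsupp P₀ hP₀ e he hpow⟩

end Vale.Agent.Results.P107.FrontierPower
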